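import Vale.Agent.P141.Stmt

namespace Vale.Agent.P141

open MeasureTheory
open scoped ENNReal NNReal

theorem alg (C R M P b N₁ N₂ N₃ Q₁ Q₂ Q₃ a₁ a₂ a₃ θ : ℝ) (hC : 0 < C) (hR : 0 ≤ R) (hM : 1 ≤ M)
    (hP : M ≤ 2 * P) (hb : b ≤ 4 * M + 4 * R + 2)
    (n₁ : 0 ≤ N₁) (n₂ : 0 ≤ N₂) (n₃ : 0 ≤ N₃) (q₁ : 0 < Q₁) (q₂ : 0 < Q₂) (q₃ : 0 < Q₃)
    (h₁ : N₁ * Q₁ ≤ 4) (h₂ : N₂ * Q₂ ≤ 4) (h₃ : N₃ * Q₃ ≤ 4)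
    (e₁ : 0 ≤ a₁) (e₂ : 0 ≤ a₂) (e₃ : 0 ≤ a₃) (hθ : θ = a₁ + a₂ + a₃ - 1) (hθ0 : 0 < θ)
    (h : P ^ (a₁ + a₂ + a₃) ≤ C * b * N₁ ^ a₁ * N₂ ^ a₂ * N₃ ^ a₃) :
    M * (Q₁ ^ (a₁ / θ) * Q₂ ^ (a₂ / θ) * Q₃ ^ (a₃ / θ)) ≤
      (C * (4 * R + 6) * 8 ^ (a₁ + a₂ + a₃)) ^ (1 / θ) := by
  have hM0 : 0 < M := lt_of_lt_of_le one_pos hM
  obtain ⟨ρ, hρ⟩ : ∃ ρ, ρ = a₁ + a₂ + a₃ := ⟨_, rfl⟩
  have hρθ : ρ = θ + 1 := by rw [hρ, hθ]; ring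
  have hρ0 : 0 ≤ ρ := by rw [hρθ]; linarith
  have k : ∀ N Q a : ℝ, 0 ≤ N → 0 < Q → N * Q ≤ 4 → 0 ≤ a → N ^ a * Q ^ a ≤ 4 ^ a := by
    intro N Q a hN hQ hNQ ha
    rw [← Real.mul_rpow hN hQ.le]
    exact Real.rpow_le_rpow (mul_nonneg hN hQ.le) hNQ ha
  have k₁ := k N₁ Q₁ a₁ n₁ q₁ h₁ e₁
  have k₂ := k N₂ Q₂ a₂ n₂ q₂ h₂ e₂
  have k₃ := k N₃ Q₃ a₃ n₃ q₃ h₃ e₃
  have h4 : (4 : ℝ) ^ a₁ * 4 ^ a₂ * 4 ^ a₃ = 4 ^ ρ := by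
    rw [hρ, Real.rpow_add (by norm_num), Real.rpow_add (by norm_num)]
  have hprod : (N₁ ^ a₁ * Q₁ ^ a₁) * (N₂ ^ a₂ * Q₂ ^ a₂) * (N₃ ^ a₃ * Q₃ ^ a₃) ≤ 4 ^ ρ := by
    rw [← h4]
    exact mul_le_mul (mul_le_mul k₁ k₂ (by positivity) (by positivity)) k₃ (by positivity)
      (by positivity)
  rw [← hρ] at h ⊢
  have hb' : b ≤ (4 * R + 6) * M := by nlinarith [mul_nonneg hR (sub_nonneg.2 hM)]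
  have hP' : (M / 2) ^ ρ ≤ P ^ ρ := Real.rpow_le_rpow (by positivity) (by linarith) hρ0
  have hX : 0 ≤ N₁ ^ a₁ * N₂ ^ a₂ * N₃ ^ a₃ := by positivity
  have s1 : (M / 2) ^ ρ ≤ C * ((4 * R + 6) * M) * (N₁ ^ a₁ * N₂ ^ a₂ * N₃ ^ a₃) := by
    refine hP'.trans (h.trans ?_)
    have := mul_le_mul_of_nonneg_right (mul_le_mul_of_nonneg_left hb' hC.le) hX
    calc C * b * N₁ ^ a₁ * N₂ ^ a₂ * N₃ ^ a₃ = C * b * (N₁ ^ a₁ * N₂ ^ a₂ * N₃ ^ a₃) := by ring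
      _ ≤ _ := this
  have hQ : 0 < Q₁ ^ a₁ * Q₂ ^ a₂ * Q₃ ^ a₃ := by positivity
  have s2 : (M / 2) ^ ρ * (Q₁ ^ a₁ * Q₂ ^ a₂ * Q₃ ^ a₃) ≤ C * ((4 * R + 6) * M) * 4 ^ ρ := by
    refine (mul_le_mul_of_nonneg_right s1 hQ.le).trans ?_
    have := mul_le_mul_of_nonneg_left hprod (show 0 ≤ C * ((4 * R + 6) * M) by positivity)
    calc _ = C * ((4 * R + 6) * M) *
          ((N₁ ^ a₁ * Q₁ ^ a₁) * (N₂ ^ a₂ * Q₂ ^ a₂) * (N₃ ^ a₃ * Q₃ ^ a₃)) := by ring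
      _ ≤ _ := this
  have e1 : (M / 2) ^ ρ = M ^ θ * M / 2 ^ ρ := by
    rw [Real.div_rpow hM0.le (by norm_num)]
    congr 1
    rw [hρθ, Real.rpow_add hM0, Real.rpow_one]
  have e2 : (8 : ℝ) ^ ρ = 4 ^ ρ * 2 ^ ρ := by
    rw [← Real.mul_rpow (by norm_num) (by norm_num)]
    norm_num
  have h2 : (0 : ℝ) < 2 ^ ρ := by positivity
  have s3 : M ^ θ * (Q₁ ^ a₁ * Q₂ ^ a₂ * Q₃ ^ a₃) ≤ C * (4 * R + 6) * 8 ^ ρ := by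
    rw [e1, div_mul_eq_mul_div, div_le_iff₀ h2] at s2
    refine le_of_mul_le_mul_right ?_ hM0
    rw [e2]
    calc _ = M ^ θ * M * (Q₁ ^ a₁ * Q₂ ^ a₂ * Q₃ ^ a₃) := by ring
      _ ≤ _ := s2
      _ = _ := by ring
  have e3 : M * (Q₁ ^ (a₁ / θ) * Q₂ ^ (a₂ / θ) * Q₃ ^ (a₃ / θ)) =
      (M ^ θ * (Q₁ ^ a₁ * Q₂ ^ a₂ * Q₃ ^ a₃)) ^ (1 / θ) := by
    rw [Real.mul_rpow (by positivity) hQ.le, Real.mul_rpow (by positivity) (by positivity),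
      Real.mul_rpow (by positivity) (by positivity), ← Real.rpow_mul hM0.le,
      ← Real.rpow_mul q₁.le, ← Real.rpow_mul q₂.le, ← Real.rpow_mul q₃.le,
      mul_one_div_cancel hθ0.ne', Real.rpow_one, mul_one_div, mul_one_div, mul_one_div]
  rw [e3]
  exact Real.rpow_le_rpow (by positivity) s3 (by positivity)

end Vale.Agent.P141
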