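import Vale.Agent.P141.Stmt

namespace Vale.Agent.P141

open MeasureTheory
open scoped ENNReal NNReal

theorem low_norm (g : ℝ → ℂ) (X : Finset ℤ) (c : ℝ) (hc : 0 ≤ c) (r : ℝ≥0∞) (hr0 : r ≠ 0)
    (hr : r ≠ ⊤) (h : ∀ a ∈ X, ∀ x : ℝ, |x - a| ≤ 1 / 16 → c ≤ ‖g x‖) :
    ENNReal.ofReal (c * ((X.card : ℝ) / 8) ^ (r⁻¹).toReal) ≤ eLpNorm g r volume := by
  have hm : MeasurableSet (⋃ a ∈ X, Set.Icc ((a : ℝ) - 1 / 16) (a + 1 / 16)) :=
    Finset.measurableSet_biUnion X fun a _ => measurableSet_Icc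
  have hv : volume (⋃ a ∈ X, Set.Icc ((a : ℝ) - 1 / 16) (a + 1 / 16)) =
      ENNReal.ofReal ((X.card : ℝ) / 8) := by
    rw [measure_biUnion_finset _ fun a _ => measurableSet_Icc]
    · simp only [Real.volume_Icc]
      rw [← ENNReal.ofReal_sum_of_nonneg fun a _ => by linarith]
      congr 1
      rw [Finset.sum_congr rfl (g := fun _ => (1 / 8 : ℝ)) fun a _ => by ring]
      simp [div_eq_mul_inv]
    · intro a _ b _ hab
      refine Set.disjoint_left.2 fun x ha hb => hab ?_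
      have h1 : ((a - b : ℤ) : ℝ) < 1 := by
        push_cast
        linarith [ha.1, hb.2]
      have h2 : ((b - a : ℤ) : ℝ) < 1 := by
        push_cast
        linarith [ha.2, hb.1]
      have h3 : a - b < 1 := by exact_mod_cast h1
      have h4 : b - a < 1 := by exact_mod_cast h2
      omega
  have h1 : eLpNorm ((⋃ a ∈ X, Set.Icc ((a : ℝ) - 1 / 16) (a + 1 / 16)).indicator fun _ => c) r
      volume ≤ eLpNorm g r volume := by
    refine eLpNorm_mono fun x => ?_
    by_cases hx : x ∈ ⋃ a ∈ X, Set.Icc ((a : ℝ) - 1 / 16) (a + 1 / 16)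
    · rw [Set.indicator_of_mem hx, Real.norm_of_nonneg hc]
      obtain ⟨a, ha, h2⟩ := Set.mem_iUnion₂.1 hx
      exact h a ha x (abs_le.2 ⟨by linarith [h2.1], by linarith [h2.2]⟩)
    · rw [Set.indicator_of_notMem hx, norm_zero]
      exact norm_nonneg _
  refine le_trans (le_of_eq ?_) h1
  rw [eLpNorm_indicator_const hm hr0 hr, hv, ENNReal.ofReal_mul hc, Real.enorm_eq_ofReal hc,
    ENNReal.ofReal_rpow_of_nonneg (by positivity) (by positivity), ENNReal.toReal_inv, one_div]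

end Vale.Agent.P141
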