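import Vale.Agent.P141.Stmt

namespace Vale.Agent.P141

open MeasureTheory
open scoped ENNReal NNReal

theorem val_lower (φ₁ φ₂ φ₃ : ℝ → ℝ) (c₁ : Continuous φ₁) (c₂ : Continuous φ₂)
    (c₃ : Continuous φ₃) (n₁ : ∀ y, 0 ≤ φ₁ y) (n₂ : ∀ y, 0 ≤ φ₂ y) (n₃ : ∀ y, 0 ≤ φ₃ y) (L : ℝ)
    (hsep : ∀ y y', φ₁ y ≠ 0 → φ₂ y' ≠ 0 → 1 ≤ y - y' ∧ y - y' ≤ L) (x t₀ : ℝ)
    (h : ∀ t, |t - t₀| ≤ 1 / 16 → φ₁ (x - t) = 1 ∧ φ₂ (x - 2 * t) = 1 ∧ φ₃ (x - 3 * t) = 1) :
    1 / (8 * L) ≤ ‖triHT (fun y => (φ₁ y : ℂ)) (fun y => (φ₂ y : ℂ)) (fun y => (φ₃ y : ℂ)) x‖ := by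
  set g : ℝ → ℝ := fun t => φ₁ (x - t) * φ₂ (x - 2 * t) * φ₃ (x - 3 * t) / t with hg
  have hsupp : ∀ t, t ∉ Set.Icc 1 L → g t = 0 := by
    intro t ht
    by_cases h1 : φ₁ (x - t) = 0
    · simp [hg, h1]
    by_cases h2 : φ₂ (x - 2 * t) = 0
    · simp [hg, h2]
    have h3 := hsep _ _ h1 h2
    exact absurd ⟨by linarith [h3.1], by linarith [h3.2]⟩ ht
  have hsub : Set.Icc (t₀ - 1 / 16) (t₀ + 1 / 16) ⊆ Set.Icc 1 L := by
    intro t ht
    have h1 := h t (abs_le.2 ⟨by linarith [ht.1], by linarith [ht.2]⟩)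
    have h3 := hsep (x - t) (x - 2 * t) (by rw [h1.1]; norm_num) (by rw [h1.2.1]; norm_num)
    exact ⟨by linarith [h3.1], by linarith [h3.2]⟩
  have hL : 1 ≤ L := by
    have := hsub (a := t₀) ⟨by linarith, by linarith⟩
    exact this.1.trans this.2
  have hcont : ContinuousOn g (Set.Icc 1 L) := by
    refine ContinuousOn.div (Continuous.continuousOn (by fun_prop)) continuousOn_id ?_
    intro t ht
    linarith [ht.1]
  have hint : IntegrableOn g (Set.Icc 1 L) := hcont.integrableOn_Icc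
  have hval : triHT (fun y => (φ₁ y : ℂ)) (fun y => (φ₂ y : ℂ)) (fun y => (φ₃ y : ℂ)) x =
      ((∫ t in Set.Icc 1 L, g t : ℝ) : ℂ) := by
    unfold triHT
    refine Filter.Tendsto.limUnder_eq ?_
    refine tendsto_const_nhds.congr' ?_
    have h1 : ∀ᶠ ε in nhdsWithin (0 : ℝ) (Set.Ioi 0), ε < 1 :=
      mem_nhdsWithin_of_mem_nhds (Iio_mem_nhds one_pos)
    filter_upwards [h1.prod_mk (Filter.eventually_gt_atTop L)] with q hq
    unfold truncT
    have h2 : ∀ t : ℝ, (φ₁ (x - t) : ℂ) * φ₂ (x - 2 * t) * φ₃ (x - 3 * t) / (t : ℂ) =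
        ((g t : ℝ) : ℂ) := fun t => by simp [hg]
    simp only [h2]
    rw [integral_complex_ofReal]
    congr 1
    symm
    refine setIntegral_eq_of_subset_of_forall_diff_eq_zero ?_ (fun t ht => ?_)
      fun t ht => hsupp t ht.2
    · exact (measurableSet_lt measurable_const measurable_abs).inter
        (measurableSet_lt measurable_abs measurable_const)
    · have : |t| = t := abs_of_nonneg (by linarith [ht.1])
      exact ⟨by rw [this]; linarith [hq.1, ht.1], by rw [this]; linarith [hq.2, ht.2]⟩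
  rw [hval, Complex.norm_real]
  refine le_trans ?_ (le_abs_self _)
  have h1 : ∫ t in Set.Icc (t₀ - 1 / 16) (t₀ + 1 / 16), g t ≤ ∫ t in Set.Icc 1 L, g t := by
    refine setIntegral_mono_set hint ?_ (Filter.Eventually.of_forall hsub)
    refine (ae_restrict_iff' measurableSet_Icc).2 (Filter.Eventually.of_forall fun t ht => ?_)
    exact div_nonneg (mul_nonneg (mul_nonneg (n₁ _) (n₂ _)) (n₃ _)) (by linarith [ht.1])
  refine le_trans ?_ h1
  have h2 : ∫ _ in Set.Icc (t₀ - 1 / 16) (t₀ + 1 / 16), (1 / L : ℝ) ≤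
      ∫ t in Set.Icc (t₀ - 1 / 16) (t₀ + 1 / 16), g t := by
    refine setIntegral_mono_on (continuousOn_const.integrableOn_Icc) (hint.mono_set hsub)
      measurableSet_Icc fun t ht => ?_
    have h1 := h t (abs_le.2 ⟨by linarith [ht.1], by linarith [ht.2]⟩)
    have h3 := hsub ht
    simp only [hg, h1.1, h1.2.1, h1.2.2, mul_one]
    exact one_div_le_one_div_of_le (by linarith [h3.1]) h3.2
  refine le_trans (le_of_eq ?_) h2
  rw [setIntegral_const, Real.volume_real_Icc_of_le (by linarith), smul_eq_mul]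
  have : L ≠ 0 := by linarith
  field_simp
  ring

end Vale.Agent.P141
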