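import Vale.Agent.P141.Bump
import Vale.Agent.P141.Val
import Vale.Agent.P141.Low

namespace Vale.Agent.P141

open MeasureTheory
open scoped ENNReal NNReal

theorem card_shift (P : Finset (ℤ × ℤ)) (j k : ℤ) :
    (P.image fun z => z.1 - j * (z.2 + k)).card = (P.image fun z => z.1 - j * z.2).card := by
  have h : (P.image fun z => z.1 - j * (z.2 + k)) =
      (P.image fun z => z.1 - j * z.2).image (fun a => a - j * k) := by
    rw [Finset.image_image]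
    refine Finset.image_congr ?_
    intro z _
    simp only [Function.comp]
    ring
  rw [h]
  exact Finset.card_image_of_injective _ (sub_left_injective)

theorem near_shift (x t a t₀ j : ℝ) (hj0 : 0 ≤ j) (hj : j ≤ 3) (hx : |x - a| ≤ 1 / 16)
    (ht : |t - t₀| ≤ 1 / 16) : |x - j * t - (a - j * t₀)| ≤ 1 / 4 := by
  have e : x - j * t - (a - j * t₀) = (x - a) - j * (t - t₀) := by ring
  rw [e]
  have h1 := abs_sub (x - a) (j * (t - t₀))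
  rw [abs_mul, abs_of_nonneg hj0] at h1
  have h2 : j * |t - t₀| ≤ 3 * (1 / 16) :=
    mul_le_mul hj ht (abs_nonneg _) (by norm_num)
  linarith

theorem ana (p₁ p₂ p₃ r : ℝ≥0∞) (hr0 : r ≠ 0) (hr : r ≠ ⊤) (hB : BoundedAt p₁ p₂ p₃ r) :
    ∃ C : ℝ, 0 < C ∧ ∀ (b : ℕ) (P : Finset (ℤ × ℤ)), 0 < b →
      Set.InjOn Prod.fst (P : Set (ℤ × ℤ)) →
      (∀ z ∈ P, 0 ≤ z.1 ∧ z.1 < b ∧ 0 ≤ z.2 ∧ z.2 < b) →
      (P.card : ℝ) ^ (r⁻¹).toReal ≤ C * b *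
        ((P.image fun z => z.1 - ((1 : ℕ) : ℤ) * z.2).card : ℝ) ^ (p₁⁻¹).toReal *
        ((P.image fun z => z.1 - ((2 : ℕ) : ℤ) * z.2).card : ℝ) ^ (p₂⁻¹).toReal *
        ((P.image fun z => z.1 - ((3 : ℕ) : ℤ) * z.2).card : ℝ) ^ (p₃⁻¹).toReal := by
  obtain ⟨C, hC⟩ := hB
  have h8 : (0 : ℝ) < 8 ^ (r⁻¹).toReal := Real.rpow_pos_of_pos (by norm_num) _
  have hC0 : (0 : ℝ) ≤ C := C.2
  refine ⟨((C : ℝ) + 1) * 112 * 8 ^ (r⁻¹).toReal, by positivity, ?_⟩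
  intro b P hb hinj hP
  have hb' : (1 : ℝ) ≤ b := by exact_mod_cast hb
  obtain ⟨φ₁, f₁, e₁, c₁, n₁, o₁, s₁, l₁⟩ :=
    bump (P.image fun z => z.1 - ((1 : ℕ) : ℤ) * (z.2 + 10 * b))
  obtain ⟨φ₂, f₂, e₂, c₂, n₂, o₂, s₂, l₂⟩ :=
    bump (P.image fun z => z.1 - ((2 : ℕ) : ℤ) * (z.2 + 10 * b))
  obtain ⟨φ₃, f₃, e₃, c₃, n₃, o₃, s₃, l₃⟩ :=
    bump (P.image fun z => z.1 - ((3 : ℕ) : ℤ) * (z.2 + 10 * b))
  have hsep : ∀ y y', φ₁ y ≠ 0 → φ₂ y' ≠ 0 → 1 ≤ y - y' ∧ y - y' ≤ 14 * (b : ℝ) := by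
    intro y y' hy hy'
    obtain ⟨a, ha, ha2⟩ := s₁ y hy
    obtain ⟨a', ha', ha2'⟩ := s₂ y' hy'
    obtain ⟨z, hz, rfl⟩ := Finset.mem_image.1 ha
    obtain ⟨z', hz', rfl⟩ := Finset.mem_image.1 ha'
    obtain ⟨u1, u2, u3, u4⟩ := hP z hz
    obtain ⟨v1, v2, v3, v4⟩ := hP z' hz'
    have u1' : (0 : ℝ) ≤ z.1 := by exact_mod_cast u1
    have u2' : (z.1 : ℝ) < b := by exact_mod_cast u2
    have u3' : (0 : ℝ) ≤ z.2 := by exact_mod_cast u3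
    have u4' : (z.2 : ℝ) < b := by exact_mod_cast u4
    have v1' : (0 : ℝ) ≤ z'.1 := by exact_mod_cast v1
    have v2' : (z'.1 : ℝ) < b := by exact_mod_cast v2
    have v3' : (0 : ℝ) ≤ z'.2 := by exact_mod_cast v3
    have v4' : (z'.2 : ℝ) < b := by exact_mod_cast v4
    push_cast at ha2 ha2'
    rw [abs_lt] at ha2 ha2'
    constructor <;> linarith [ha2.1, ha2.2, ha2'.1, ha2'.2]
  have hlow : ∀ a ∈ P.image Prod.fst, ∀ x : ℝ, |x - a| ≤ 1 / 16 →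
      1 / (8 * (14 * (b : ℝ))) ≤ ‖triHT f₁ f₂ f₃ x‖ := by
    intro a ha x hx
    obtain ⟨z, hz, rfl⟩ := Finset.mem_image.1 ha
    have g₁ : (f₁ : ℝ → ℂ) = fun y => (φ₁ y : ℂ) := funext e₁
    have g₂ : (f₂ : ℝ → ℂ) = fun y => (φ₂ y : ℂ) := funext e₂
    have g₃ : (f₃ : ℝ → ℂ) = fun y => (φ₃ y : ℂ) := funext e₃
    rw [g₁, g₂, g₃]
    refine val_lower φ₁ φ₂ φ₃ c₁ c₂ c₃ n₁ n₂ n₃ _ hsep x ((z.2 : ℝ) + 10 * b) ?_
    intro t ht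
    refine ⟨o₁ _ (Finset.mem_image_of_mem _ hz) _ ?_, o₂ _ (Finset.mem_image_of_mem _ hz) _ ?_,
      o₃ _ (Finset.mem_image_of_mem _ hz) _ ?_⟩
    · have := near_shift x t z.1 _ 1 (by norm_num) (by norm_num) hx ht
      push_cast
      rw [one_mul] at this
      exact this
    · have := near_shift x t z.1 _ 2 (by norm_num) (by norm_num) hx ht
      push_cast
      exact this
    · have := near_shift x t z.1 _ 3 (by norm_num) (by norm_num) hx ht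
      push_cast
      exact this
  have hL := low_norm (triHT f₁ f₂ f₃) (P.image Prod.fst) (1 / (8 * (14 * (b : ℝ))))
    (by positivity) r hr0 hr hlow
  rw [Finset.card_image_of_injOn hinj] at hL
  have k₁ := l₁ p₁
  have k₂ := l₂ p₂
  have k₃ := l₃ p₃
  rw [card_shift] at k₁ k₂ k₃
  have m₁ : (0 : ℝ) ≤ ((P.image fun z => z.1 - ((1 : ℕ) : ℤ) * z.2).card : ℝ) ^ (p₁⁻¹).toReal :=
    Real.rpow_nonneg (Nat.cast_nonneg _) _
  have m₂ : (0 : ℝ) ≤ ((P.image fun z => z.1 - ((2 : ℕ) : ℤ) * z.2).card : ℝ) ^ (p₂⁻¹).toReal :=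
    Real.rpow_nonneg (Nat.cast_nonneg _) _
  have m₃ : (0 : ℝ) ≤ ((P.image fun z => z.1 - ((3 : ℕ) : ℤ) * z.2).card : ℝ) ^ (p₃⁻¹).toReal :=
    Real.rpow_nonneg (Nat.cast_nonneg _) _
  generalize ((P.image fun z => z.1 - ((1 : ℕ) : ℤ) * z.2).card : ℝ) ^ (p₁⁻¹).toReal = N₁
    at k₁ m₁ ⊢
  generalize ((P.image fun z => z.1 - ((2 : ℕ) : ℤ) * z.2).card : ℝ) ^ (p₂⁻¹).toReal = N₂
    at k₂ m₂ ⊢
  generalize ((P.image fun z => z.1 - ((3 : ℕ) : ℤ) * z.2).card : ℝ) ^ (p₃⁻¹).toReal = N₃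
    at k₃ m₃ ⊢
  have hU : ENNReal.ofReal (1 / (8 * (14 * (b : ℝ))) * ((P.card : ℝ) / 8) ^ (r⁻¹).toReal) ≤
      ENNReal.ofReal ((C : ℝ) * N₁ * N₂ * N₃) := by
    refine hL.trans ((hC f₁ f₂ f₃).trans ?_)
    rw [ENNReal.ofReal_mul (by positivity), ENNReal.ofReal_mul (by positivity),
      ENNReal.ofReal_mul hC0, ENNReal.ofReal_coe_nnreal]
    exact mul_le_mul' (mul_le_mul' (mul_le_mul' le_rfl k₁) k₂) k₃
  rw [ENNReal.ofReal_le_ofReal_iff (by positivity),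
    Real.div_rpow (Nat.cast_nonneg _) (by norm_num)] at hU
  generalize (P.card : ℝ) ^ (r⁻¹).toReal = X at hU ⊢
  generalize (8 : ℝ) ^ (r⁻¹).toReal = E at hU h8 ⊢
  have hbpos : (0 : ℝ) < b := by linarith
  have hX : X = (1 / (8 * (14 * (b : ℝ))) * (X / E)) * (112 * b * E) := by
    field_simp
    ring
  have hW : (0 : ℝ) ≤ N₁ * N₂ * N₃ := by positivity
  have h1 : (C : ℝ) * N₁ * N₂ * N₃ ≤ ((C : ℝ) + 1) * (N₁ * N₂ * N₃) := by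
    have : ((C : ℝ) + 1) * (N₁ * N₂ * N₃) = (C : ℝ) * N₁ * N₂ * N₃ + N₁ * N₂ * N₃ := by ring
    linarith
  calc X = (1 / (8 * (14 * (b : ℝ))) * (X / E)) * (112 * b * E) := hX
    _ ≤ (((C : ℝ) + 1) * (N₁ * N₂ * N₃)) * (112 * b * E) :=
        mul_le_mul_of_nonneg_right (hU.trans h1) (by positivity)
    _ = _ := by ring

end Vale.Agent.P141
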