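import Vale.Agent.P141.Stmt

namespace Vale.Agent.P141

open MeasureTheory
open scoped ENNReal NNReal Manifold ContDiff

theorem bump (A : Finset ℤ) : ∃ (φ : ℝ → ℝ) (f : SchwartzMap ℝ ℂ),
    (∀ y, f y = (φ y : ℂ)) ∧ Continuous φ ∧ (∀ y, 0 ≤ φ y) ∧
    (∀ a ∈ A, ∀ y : ℝ, |y - a| ≤ 1 / 4 → φ y = 1) ∧
    (∀ y, φ y ≠ 0 → ∃ a ∈ A, |y - (a : ℝ)| < 1 / 2) ∧
    ∀ p : ℝ≥0∞, eLpNorm f p volume ≤ ENNReal.ofReal ((A.card : ℝ) ^ (p⁻¹).toReal) := by
  classical
  set U : Set ℝ := ⋃ a ∈ A, Metric.ball (a : ℝ) (1 / 2) with hU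
  set T : Set ℝ := ⋃ a ∈ A, Metric.closedBall (a : ℝ) (1 / 4) with hT
  set K : Set ℝ := ⋃ a ∈ A, Metric.closedBall (a : ℝ) (1 / 2) with hK
  have hUo : IsOpen U := isOpen_biUnion fun a _ => Metric.isOpen_ball
  have hTc : IsClosed T := A.finite_toSet.isClosed_biUnion fun a _ => Metric.isClosed_closedBall
  have hKc : IsCompact K := A.finite_toSet.isCompact_biUnion fun a _ => isCompact_closedBall _ _
  have hTU : T ⊆ U := Set.iUnion₂_mono fun a _ => Metric.closedBall_subset_ball (by norm_num)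
  have hUK : U ⊆ K := Set.iUnion₂_mono fun a _ => Metric.ball_subset_closedBall
  have hd : Disjoint Uᶜ T := Set.disjoint_compl_left_iff_subset.2 hTU
  obtain ⟨g, hg0, hg1, hg⟩ :=
    exists_contMDiffMap_zero_one_of_isClosed (n := ⊤) 𝓘(ℝ, ℝ) hUo.isClosed_compl hTc hd
  have hgs : ContDiff ℝ ∞ (g : ℝ → ℝ) := contMDiff_iff_contDiff.1 g.contMDiff
  have hgU : ∀ y, g y ≠ 0 → y ∈ U := fun y hy => by
    by_contra h
    exact hy (hg0 h)
  have hsm : ContDiff ℝ ∞ (fun y => ((g y : ℝ) : ℂ)) := Complex.ofRealCLM.contDiff.comp hgs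
  have hcs : HasCompactSupport (fun y => ((g y : ℝ) : ℂ)) := by
    refine HasCompactSupport.intro hKc fun y hy => ?_
    by_contra h
    exact hy (hUK (hgU y fun h0 => h (by simp [h0])))
  refine ⟨g, hcs.toSchwartzMap hsm, fun y => rfl, hgs.continuous, fun y => (hg y).1, ?_, ?_, ?_⟩
  · intro a ha y hy
    refine hg1 (Set.mem_iUnion₂.2 ⟨a, ha, ?_⟩)
    rw [Metric.mem_closedBall, Real.dist_eq]
    exact hy
  · intro y hy
    obtain ⟨a, ha, h⟩ := Set.mem_iUnion₂.1 (hgU y hy)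
    rw [Metric.mem_ball, Real.dist_eq] at h
    exact ⟨a, ha, h⟩
  · intro p
    have hvol : volume U ≤ ENNReal.ofReal (A.card : ℝ) := by
      refine (measure_biUnion_finset_le A _).trans ?_
      simp only [Real.volume_ball]
      norm_num
    have h1 : eLpNorm (hcs.toSchwartzMap hsm) p volume ≤
        eLpNorm (U.indicator fun _ => (1 : ℝ)) p volume := by
      refine eLpNorm_mono_real fun y => ?_
      change ‖((g y : ℝ) : ℂ)‖ ≤ _
      rw [Complex.norm_real, Real.norm_eq_abs, abs_of_nonneg (hg y).1]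
      by_cases hy : y ∈ U
      · rw [Set.indicator_of_mem hy]
        exact (hg y).2
      · rw [Set.indicator_of_notMem hy]
        exact (hg0 hy).le
    refine h1.trans ((eLpNorm_indicator_const_le _ p).trans ?_)
    rw [enorm_one, one_mul, ← ENNReal.ofReal_rpow_of_nonneg (Nat.cast_nonneg _)
      ENNReal.toReal_nonneg, ENNReal.toReal_inv, one_div]
    exact ENNReal.rpow_le_rpow hvol (inv_nonneg.2 ENNReal.toReal_nonneg)

end Vale.Agent.P141
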