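import Vale.Agent.P141.HashA

namespace Vale.Agent.P141

open MeasureTheory
open scoped ENNReal NNReal

theorem hashB (n R : ℕ) (S : Finset ((Fin n → ℤ) × (Fin n → ℤ)))
    (hinj : Set.InjOn Prod.fst (S : Set ((Fin n → ℤ) × (Fin n → ℤ))))
    (hR : ∀ z ∈ S, ∀ i, |z.1 i| ≤ R) :
    ∃ (b : ℕ) (P : Finset (ℤ × ℤ)), 0 < b ∧ b ≤ 4 * S.card + 4 * R + 2 ∧
      Set.InjOn Prod.fst (P : Set (ℤ × ℤ)) ∧
      (∀ z ∈ P, 0 ≤ z.1 ∧ z.1 < b ∧ 0 ≤ z.2 ∧ z.2 < b) ∧ S.card ≤ 2 * P.card ∧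
      ∀ j : ℕ, j ≤ 3 → (P.image fun z => z.1 - (j : ℤ) * z.2).card ≤
        4 * (S.image fun z => fun i => z.1 i - (j : ℤ) * z.2 i).card := by
  classical
  obtain ⟨b, hb, hb1, hb2⟩ := Nat.exists_prime_lt_and_le_two_mul (2 * S.card + 2 * R + 1) (by omega)
  haveI : Fact b.Prime := ⟨hb⟩
  have hcard : (S.image fun z => fun i => ((z.1 i : ℤ) : ZMod b)).card = S.card := by
    refine Finset.card_image_of_injOn fun z hz z' hz' h => hinj hz hz' (funext fun i => ?_)
    have h1 := (ZMod.intCast_eq_intCast_iff_dvd_sub _ _ _).1 (congrFun h i)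
    have h2 := abs_le.1 (hR z hz i)
    have h3 := abs_le.1 (hR z' hz' i)
    have h4 := Int.eq_zero_of_abs_lt_dvd h1 (abs_lt.2 ⟨by omega, by omega⟩)
    omega
  obtain ⟨c, hc⟩ := hashA n b (S.image fun z => fun i => ((z.1 i : ℤ) : ZMod b)) (by omega)
  rw [hcard, Finset.image_image] at hc
  set L : (Fin n → ℤ) → ZMod b := fun v => ∑ i, c i * (v i : ZMod b) with hL
  have hc' : S.card ≤ 2 * (S.image fun z => L z.1).card := hc
  obtain ⟨S0, hS0, hi0, he0⟩ := Finset.exists_subset_injOn_image_eq_of_surjOn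
    (f := fun z : (Fin n → ℤ) × (Fin n → ℤ) => L z.1) (S : Set _) (S.image fun z => L z.1)
    (by rw [Finset.coe_image]; exact Set.surjOn_image _ _)
  have hv : ∀ x y : ZMod b, ((x.val : ℕ) : ℤ) = (y.val : ℕ) → x = y := fun x y h =>
    ZMod.val_injective b (by exact_mod_cast h)
  refine ⟨b, S0.image fun z => (((L z.1).val : ℤ), ((L z.2).val : ℤ)), hb.pos, by omega,
    ?_, ?_, ?_, fun j hj => ?_⟩
  · intro p hp p' hp' h
    obtain ⟨z, hz, rfl⟩ := Finset.mem_image.1 (Finset.mem_coe.1 hp)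
    obtain ⟨z', hz', rfl⟩ := Finset.mem_image.1 (Finset.mem_coe.1 hp')
    rw [hi0 hz hz' (hv _ _ h)]
  · intro p hp
    obtain ⟨z, -, rfl⟩ := Finset.mem_image.1 hp
    have h1 := ZMod.val_lt (L z.1)
    have h2 := ZMod.val_lt (L z.2)
    simp only
    omega
  · rw [Finset.card_image_of_injOn fun z hz z' hz' h => hi0 hz hz' (hv _ _ (congrArg Prod.fst h))]
    rw [← he0, Finset.card_image_of_injOn hi0] at hc'
    exact hc'
  · refine (Finset.card_le_card (t := ((S.image fun z => fun i => z.1 i - (j : ℤ) * z.2 i) ×ˢ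
      Finset.range 4).image fun q => ((L q.1).val : ℤ) - (q.2 : ℤ) * b) ?_).trans
      (Finset.card_image_le.trans (by rw [Finset.card_product, Finset.card_range, mul_comm]))
    intro m hm
    obtain ⟨p, hp, rfl⟩ := Finset.mem_image.1 hm
    obtain ⟨z, hz, rfl⟩ := Finset.mem_image.1 hp
    simp only
    have e1 : L (fun i => z.1 i - (j : ℤ) * z.2 i) = L z.1 - (j : ZMod b) * L z.2 := by
      simp only [hL, Finset.mul_sum, ← Finset.sum_sub_distrib]
      refine Finset.sum_congr rfl fun i _ => ?_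
      push_cast
      ring
    have h1 := ZMod.val_lt (L z.1)
    have h2 := ZMod.val_lt (L z.2)
    have h3 := ZMod.val_lt (L fun i => z.1 i - (j : ℤ) * z.2 i)
    have h4 : (b : ℤ) ∣ ((L fun i => z.1 i - (j : ℤ) * z.2 i).val : ℤ) -
        (((L z.1).val : ℤ) - (j : ℤ) * ((L z.2).val : ℤ)) := by
      refine (ZMod.intCast_eq_intCast_iff_dvd_sub _ _ _).1 ?_
      push_cast
      simp only [ZMod.natCast_val, ZMod.cast_id', id, e1]
    obtain ⟨k, hk⟩ := h4
    have hb0 : (0 : ℤ) < b := by exact_mod_cast hb.pos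
    have hj0 : (0 : ℤ) ≤ (j : ℤ) * ((L z.2).val : ℤ) := by positivity
    have hj1 : (j : ℤ) * ((L z.2).val : ℤ) ≤ 3 * b := by
      have : (j : ℤ) ≤ 3 := by exact_mod_cast hj
      have : ((L z.2).val : ℤ) ≤ b := by exact_mod_cast h2.le
      nlinarith
    have k0 : -1 < k := by
      have : (b : ℤ) * (-1) < b * k := by omega
      exact lt_of_mul_lt_mul_left this hb0.le
    have k1 : k < 4 := by
      have : (b : ℤ) * k < b * 4 := by omega
      exact lt_of_mul_lt_mul_left this hb0.le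
    refine Finset.mem_image.2 ⟨(fun i => z.1 i - (j : ℤ) * z.2 i, k.toNat),
      Finset.mem_product.2 ⟨Finset.mem_image.2 ⟨z, hS0 hz, rfl⟩, Finset.mem_range.2 (by
        simp only; omega)⟩, ?_⟩
    simp only
    rw [Int.toNat_of_nonneg (by omega)]
    linarith

end Vale.Agent.P141
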