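import Vale.Agent.P141.Stmt

namespace Vale.Agent.P141

open MeasureTheory
open scoped ENNReal NNReal

theorem img_card (n m : ℕ) (π : Fin m → ℤ) (w : ℤ → ℝ) (hw : ∀ a, 0 ≤ w a)
    (hs : ∑ a ∈ Finset.univ.image π, w a ≤ 1) (S : Finset (Fin n → Fin m)) (Q : ℝ)
    (hQ : ∀ s ∈ S, ∏ i, w (π (s i)) = Q) :
    ((S.image fun s => fun i => π (s i)).card : ℝ) * Q ≤ 1 := by
  have h1 : (S.image fun s => fun i => π (s i)) ⊆
      Fintype.piFinset fun _ : Fin n => Finset.univ.image π := by
    intro x hx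
    obtain ⟨s, -, rfl⟩ := Finset.mem_image.1 hx
    exact Fintype.mem_piFinset.2 fun i => Finset.mem_image_of_mem _ (Finset.mem_univ _)
  have h2 : ∑ x ∈ S.image (fun s => fun i => π (s i)), ∏ i, w (x i) =
      ((S.image fun s => fun i => π (s i)).card : ℝ) * Q := by
    rw [Finset.sum_congr rfl (g := fun _ => Q), Finset.sum_const, nsmul_eq_mul]
    intro x hx
    obtain ⟨s, h3, rfl⟩ := Finset.mem_image.1 hx
    exact hQ s h3
  rw [← h2]
  refine (Finset.sum_le_sum_of_subset_of_nonneg h1 fun x _ _ =>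
    Finset.prod_nonneg fun i _ => hw _).trans ?_
  rw [← Finset.prod_univ_sum (fun _ : Fin n => Finset.univ.image π) fun _ a => w a]
  exact Finset.prod_le_one (fun _ _ => Finset.sum_nonneg fun a _ => hw a) fun _ _ => hs

end Vale.Agent.P141
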