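import Vale.Agent.P141.Stmt

namespace Vale.Agent.P141

open MeasureTheory
open scoped ENNReal NNReal

theorem gibbs (m K : ℕ) (hK : 0 < K) (k κ₁ κ₂ κ₃ : Fin m → ℕ) (hk : ∀ d, 0 < k d)
    (hs : ∑ d, k d = K) (p₁ : ∀ d, 0 < κ₁ d ∧ κ₁ d ≤ K) (p₂ : ∀ d, 0 < κ₂ d)
    (p₃ : ∀ d, 0 < κ₃ d)
    (i₁ : (∏ d, k d ^ (8 * k d)) * K ^ (7 * K) < ∏ d, κ₁ d ^ (15 * k d))
    (i₂ : (∏ d, k d ^ (8 * k d)) * K ^ (7 * K) < ∏ d, κ₂ d ^ (15 * k d))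
    (i₃ : (∏ d, k d ^ (8 * k d)) * K ^ (7 * K) < ∏ d, κ₃ d ^ (15 * k d))
    (e₁ e₂ e₃ : ℝ) (h₁ : 0 ≤ e₁) (h₂ : 0 ≤ e₂) (h₃ : 0 ≤ e₃) (he : e₁ + e₂ + e₃ ≤ 15 / 8) :
    1 < ∑ d, ((κ₁ d : ℝ) / K) ^ e₁ * ((κ₂ d : ℝ) / K) ^ e₂ * ((κ₃ d : ℝ) / K) ^ e₃ := by
  have hKR : (0 : ℝ) < K := by exact_mod_cast hK
  have hsR : ∑ d, (k d : ℝ) = K := by exact_mod_cast hs
  have key : ∀ κ : Fin m → ℕ, (∀ d, 0 < κ d) →
      (∏ d, k d ^ (8 * k d)) * K ^ (7 * K) < ∏ d, κ d ^ (15 * k d) →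
      8 * ∑ d, (k d : ℝ) * Real.log ((k d : ℝ) / K) <
        15 * ∑ d, (k d : ℝ) * Real.log ((κ d : ℝ) / K) := by
    intro κ hκ hi
    have hiR : (∏ d, (k d : ℝ) ^ (8 * k d)) * (K : ℝ) ^ (7 * K) <
        ∏ d, (κ d : ℝ) ^ (15 * k d) := by exact_mod_cast hi
    have hk' : ∀ d, (0 : ℝ) < k d := fun d => by exact_mod_cast hk d
    have hκ' : ∀ d, (0 : ℝ) < κ d := fun d => by exact_mod_cast hκ d
    have hA : 0 < ∏ d, (k d : ℝ) ^ (8 * k d) := Finset.prod_pos fun d _ => pow_pos (hk' d) _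
    have hl := Real.log_lt_log (mul_pos hA (pow_pos hKR _)) hiR
    rw [Real.log_mul hA.ne' (pow_pos hKR _).ne', Real.log_prod (fun d _ => (pow_pos (hk' d) _).ne'),
      Real.log_prod (fun d _ => (pow_pos (hκ' d) _).ne'), Real.log_pow] at hl
    simp only [Real.log_pow] at hl
    have a1 : ∑ d, (k d : ℝ) * Real.log ((k d : ℝ) / K) =
        ∑ d, (k d : ℝ) * Real.log (k d : ℝ) - K * Real.log K := by
      rw [← hsR, Finset.sum_mul, ← Finset.sum_sub_distrib]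
      refine Finset.sum_congr rfl fun d _ => ?_
      rw [hsR, Real.log_div (hk' d).ne' hKR.ne']; ring
    have a2 : ∑ d, (k d : ℝ) * Real.log ((κ d : ℝ) / K) =
        ∑ d, (k d : ℝ) * Real.log (κ d : ℝ) - K * Real.log K := by
      rw [← hsR, Finset.sum_mul, ← Finset.sum_sub_distrib]
      refine Finset.sum_congr rfl fun d _ => ?_
      rw [hsR, Real.log_div (hκ' d).ne' hKR.ne']; ring
    have a3 : ∑ d, ((8 * k d : ℕ) : ℝ) * Real.log (k d : ℝ) =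
        8 * ∑ d, (k d : ℝ) * Real.log (k d : ℝ) := by
      rw [Finset.mul_sum]
      refine Finset.sum_congr rfl fun d _ => ?_
      push_cast; ring
    have a4 : ∑ d, ((15 * k d : ℕ) : ℝ) * Real.log (κ d : ℝ) =
        15 * ∑ d, (k d : ℝ) * Real.log (κ d : ℝ) := by
      rw [Finset.mul_sum]
      refine Finset.sum_congr rfl fun d _ => ?_
      push_cast; ring
    rw [a3, a4] at hl
    rw [a1, a2]
    push_cast at hl
    linarith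
  have k1 := key κ₁ (fun d => (p₁ d).1) i₁
  have k2 := key κ₂ p₂ i₂
  have k3 := key κ₃ p₃ i₃
  have hk' : ∀ d, (0 : ℝ) < k d := fun d => by exact_mod_cast hk d
  have q1 : ∀ d, (0 : ℝ) < (κ₁ d : ℝ) / K := fun d =>
    div_pos (by exact_mod_cast (p₁ d).1) hKR
  have q2 : ∀ d, (0 : ℝ) < (κ₂ d : ℝ) / K := fun d => div_pos (by exact_mod_cast p₂ d) hKR
  have q3 : ∀ d, (0 : ℝ) < (κ₃ d : ℝ) / K := fun d => div_pos (by exact_mod_cast p₃ d) hKR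
  have l1 : ∑ d, (k d : ℝ) * Real.log ((κ₁ d : ℝ) / K) ≤ 0 := by
    refine Finset.sum_nonpos fun d _ => mul_nonpos_of_nonneg_of_nonpos (hk' d).le ?_
    refine Real.log_nonpos (q1 d).le ?_
    rw [div_le_one hKR]; exact_mod_cast (p₁ d).2
  set L0 := ∑ d, (k d : ℝ) * Real.log ((k d : ℝ) / K) with hL0
  set L1 := ∑ d, (k d : ℝ) * Real.log ((κ₁ d : ℝ) / K) with hL1
  set L2 := ∑ d, (k d : ℝ) * Real.log ((κ₂ d : ℝ) / K) with hL2
  set L3 := ∑ d, (k d : ℝ) * Real.log ((κ₃ d : ℝ) / K) with hL3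
  have hpos : 0 < e₁ * L1 + e₂ * L2 + e₃ * L3 - L0 := by
    have b1 := mul_nonneg h₁ (sub_nonneg.2 k1.le)
    have b2 := mul_nonneg h₂ (sub_nonneg.2 k2.le)
    have b3 := mul_nonneg h₃ (sub_nonneg.2 k3.le)
    have hL : L0 < 0 := by linarith
    rcases he.lt_or_eq with hlt | heq
    · have := mul_pos (sub_pos.2 hlt) (neg_pos.2 hL)
      nlinarith
    · rcases h₁.lt_or_eq with c1 | c1
      · have := mul_pos c1 (sub_pos.2 k1)
        have e : L0 = 8 / 15 * (e₁ + e₂ + e₃) * L0 := by rw [heq]; ring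
        nlinarith
      · rcases h₂.lt_or_eq with c2 | c2
        · have := mul_pos c2 (sub_pos.2 k2)
          have e : L0 = 8 / 15 * (e₁ + e₂ + e₃) * L0 := by rw [heq]; ring
          nlinarith
        · have c3 : e₃ = 15 / 8 := by linarith
          rw [← c1, ← c2, c3]; linarith
  have pt : ∀ d, (k d : ℝ) / K * (1 + (e₁ * Real.log ((κ₁ d : ℝ) / K) +
      e₂ * Real.log ((κ₂ d : ℝ) / K) + e₃ * Real.log ((κ₃ d : ℝ) / K) -
      Real.log ((k d : ℝ) / K))) ≤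
      ((κ₁ d : ℝ) / K) ^ e₁ * ((κ₂ d : ℝ) / K) ^ e₂ * ((κ₃ d : ℝ) / K) ^ e₃ := by
    intro d
    have hp : (0 : ℝ) < (k d : ℝ) / K := div_pos (hk' d) hKR
    rw [Real.rpow_def_of_pos (q1 d), Real.rpow_def_of_pos (q2 d), Real.rpow_def_of_pos (q3 d),
      ← Real.exp_add, ← Real.exp_add]
    have h := Real.add_one_le_exp (e₁ * Real.log ((κ₁ d : ℝ) / K) +
      e₂ * Real.log ((κ₂ d : ℝ) / K) + e₃ * Real.log ((κ₃ d : ℝ) / K) -
      Real.log ((k d : ℝ) / K))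
    rw [Real.exp_sub, Real.exp_log hp, le_div_iff₀ hp] at h
    have e : Real.log ((κ₁ d : ℝ) / K) * e₁ + Real.log ((κ₂ d : ℝ) / K) * e₂ +
        Real.log ((κ₃ d : ℝ) / K) * e₃ = e₁ * Real.log ((κ₁ d : ℝ) / K) +
        e₂ * Real.log ((κ₂ d : ℝ) / K) + e₃ * Real.log ((κ₃ d : ℝ) / K) := by ring
    rw [e]
    linarith
  refine lt_of_lt_of_le ?_ (Finset.sum_le_sum fun d _ => pt d)
  have e : ∑ d, (k d : ℝ) / K * (1 + (e₁ * Real.log ((κ₁ d : ℝ) / K) +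
      e₂ * Real.log ((κ₂ d : ℝ) / K) + e₃ * Real.log ((κ₃ d : ℝ) / K) -
      Real.log ((k d : ℝ) / K))) =
      ((∑ d, (k d : ℝ)) + (e₁ * L1 + e₂ * L2 + e₃ * L3 - L0)) / K := by
    rw [hL0, hL1, hL2, hL3, Finset.mul_sum, Finset.mul_sum, Finset.mul_sum,
      ← Finset.sum_add_distrib, ← Finset.sum_add_distrib, ← Finset.sum_sub_distrib,
      ← Finset.sum_add_distrib, Finset.sum_div]
    refine Finset.sum_congr rfl fun d _ => ?_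
    ring
  rw [e, hsR, lt_div_iff₀ hKR]
  linarith

def nxs : Fin 16 → ℤ := ![-1, 0, 2, 3, 4, 5, 6, 7, 8, 9, 10, 11, 12, 13, 14, 15]
def nts : Fin 16 → ℤ := ![-1, 0, 0, 1, 2, 1, 2, 3, 4, 3, 4, 5, 6, 5, 6, 7]
def nks : Fin 16 → ℕ := ![1, 1, 2, 8, 7, 2, 15, 26, 10, 8, 20, 16, 2, 4, 5, 1]
def kap (j : ℕ) (a : ℤ) : ℕ :=
  if j = 1 then (if a = 0 then 2 else if a = 2 then 17 else if a = 4 then 53 else if a = 6 then 46 else if a = 8 then 10 else 0)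
  else if j = 2 then (if a = 0 then 20 else if a = 1 then 52 else if a = 2 then 42 else if a = 3 then 14 else 0)
  else (if a = -6 then 3 else if a = -4 then 31 else if a = -2 then 57 else if a = 0 then 32 else if a = 2 then 5 else 0)

theorem kap_sum (j : ℕ) (h1 : 1 ≤ j) (h3 : j ≤ 3) :
    (∀ d, 0 < kap j (nxs d - (j : ℤ) * nts d) ∧ kap j (nxs d - (j : ℤ) * nts d) ≤ 128) ∧
    ∑ a ∈ Finset.univ.image (fun d => nxs d - (j : ℤ) * nts d), kap j a = 128 ∧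
    (∏ d, nks d ^ (8 * nks d)) * 128 ^ (7 * 128) <
      ∏ d, kap j (nxs d - (j : ℤ) * nts d) ^ (15 * nks d) := by
  interval_cases j <;> decide +kernel

theorem num : ∃ (m R : ℕ) (xs ts : Fin m → ℤ) (w : ℕ → ℤ → ℝ), Function.Injective xs ∧
    (∀ d, |xs d| ≤ R) ∧ (∀ j a, 0 ≤ w j a) ∧
    (∀ j : ℕ, 1 ≤ j → j ≤ 3 → (∀ d, 0 < w j (xs d - (j : ℤ) * ts d)) ∧
      ∑ a ∈ Finset.univ.image (fun d => xs d - (j : ℤ) * ts d), w j a ≤ 1) ∧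
    ∀ e₁ e₂ e₃ : ℝ, 0 ≤ e₁ → 0 ≤ e₂ → 0 ≤ e₃ → e₁ + e₂ + e₃ ≤ 15 / 8 →
      1 < ∑ d, w 1 (xs d - ((1 : ℕ) : ℤ) * ts d) ^ e₁ * w 2 (xs d - ((2 : ℕ) : ℤ) * ts d) ^ e₂ *
        w 3 (xs d - ((3 : ℕ) : ℤ) * ts d) ^ e₃ := by
  refine ⟨16, 20, nxs, nts, fun j a => (kap j a : ℝ) / ((128 : ℕ) : ℝ), by decide +kernel,
    by decide +kernel, fun j a => by positivity, fun j h1 h3 => ⟨fun d => ?_, ?_⟩, ?_⟩
  · have := ((kap_sum j h1 h3).1 d).1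
    positivity
  · rw [← Finset.sum_div, ← Nat.cast_sum, (kap_sum j h1 h3).2.1]
    norm_num
  · intro e₁ e₂ e₃ h₁ h₂ h₃ he
    have s1 := kap_sum 1 (by norm_num) (by norm_num)
    have s2 := kap_sum 2 (by norm_num) (by norm_num)
    have s3 := kap_sum 3 (by norm_num) (by norm_num)
    exact gibbs 16 128 (by norm_num) nks (fun d => kap 1 (nxs d - ((1 : ℕ) : ℤ) * nts d))
      (fun d => kap 2 (nxs d - ((2 : ℕ) : ℤ) * nts d))
      (fun d => kap 3 (nxs d - ((3 : ℕ) : ℤ) * nts d)) (by decide +kernel) (by decide +kernel)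
      s1.1 (fun d => (s2.1 d).1) (fun d => (s3.1 d).1) s1.2.2 s2.2.2 s3.2.2 e₁ e₂ e₃ h₁ h₂ h₃ he

end Vale.Agent.P141
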