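import Vale.Agent.P141.Stmt

namespace Vale.Agent.P141

open MeasureTheory
open scoped ENNReal NNReal

theorem tilt (m : ℕ) (g : Fin m → ℝ) (hg : ∀ d, 0 ≤ g d) (K : ℝ)
    (h : ∀ (n : ℕ) (S : Finset (Fin n → Fin m)) (s₀ : Fin n → Fin m), s₀ ∈ S →
      (∀ s ∈ S, ∀ u : Fin m → ℝ, ∏ i, u (s i) = ∏ i, u (s₀ i)) →
      (S.card : ℝ) * ∏ i, g (s₀ i) ≤ K) :
    ∑ d, g d ≤ 1 := by
  classical
  have hK : 0 ≤ K := by
    have := h 0 {fun i => i.elim0} (fun i => i.elim0) (Finset.mem_singleton_self _)
      (fun s _ u => by simp)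
    simp at this
    linarith
  have hprod : ∀ (n : ℕ) (s : Fin n → Fin m) (u : Fin m → ℝ),
      ∏ i, u (s i) = ∏ d, u d ^ (Finset.univ.filter fun i => s i = d).card := by
    intro n s u
    rw [← Finset.prod_fiberwise Finset.univ s (fun i => u (s i))]
    refine Finset.prod_congr rfl fun d _ => ?_
    rw [← Finset.prod_const]
    exact Finset.prod_congr rfl fun i hi => by rw [(Finset.mem_filter.1 hi).2]
  have key : ∀ n : ℕ, (∑ d, g d) ^ n ≤ K * ((n : ℝ) + 1) ^ m := by
    intro n
    let τ : (Fin n → Fin m) → (Fin m → ℕ) :=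
      fun s d => (Finset.univ.filter fun i => s i = d).card
    have hmaps : ∀ s ∈ (Finset.univ : Finset (Fin n → Fin m)),
        τ s ∈ Fintype.piFinset fun _ : Fin m => Finset.range (n + 1) := by
      intro s _
      refine Fintype.mem_piFinset.2 fun d => Finset.mem_range.2 (Nat.lt_succ_of_le ?_)
      exact (Finset.card_filter_le _ _).trans (by simp)
    rw [Fintype.sum_pow, ← Finset.sum_fiberwise_of_maps_to hmaps]
    have hfib : ∀ t ∈ Fintype.piFinset fun _ : Fin m => Finset.range (n + 1),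
        ∑ s ∈ Finset.univ.filter (fun s => τ s = t), ∏ i, g (s i) ≤ K := by
      intro t _
      rcases (Finset.univ.filter (fun s => τ s = t)).eq_empty_or_nonempty with h0 | ⟨s₀, hs₀⟩
      · rw [h0]; simpa using hK
      · have hall : ∀ s ∈ Finset.univ.filter (fun s => τ s = t), ∀ u : Fin m → ℝ,
            ∏ i, u (s i) = ∏ i, u (s₀ i) := by
          intro s hs u
          have h1 : τ s = τ s₀ := by
            rw [(Finset.mem_filter.1 hs).2, (Finset.mem_filter.1 hs₀).2]
          rw [hprod, hprod]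
          exact Finset.prod_congr rfl fun d _ => congrArg (fun k => u d ^ k) (congrFun h1 d)
        have h2 := h n _ s₀ hs₀ hall
        rwa [Finset.sum_congr rfl (fun s hs => hall s hs g), Finset.sum_const, nsmul_eq_mul]
    refine (Finset.sum_le_card_nsmul _ _ _ hfib).trans ?_
    rw [Fintype.card_piFinset]
    simp [mul_comm]
  by_contra hlt
  push Not at hlt
  set Z := ∑ d, g d with hZ
  have hZ0 : 0 < Z := by linarith
  have ht := (tendsto_pow_const_div_const_pow_of_one_lt m hlt).comp
    (Filter.tendsto_add_atTop_nat 1)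
  have ht2 := ht.const_mul (K * Z)
  rw [mul_zero] at ht2
  obtain ⟨n, hn⟩ := (ht2.eventually (gt_mem_nhds (show (0 : ℝ) < 1 by norm_num))).exists
  simp only [Function.comp] at hn
  have h3 := key n
  have h4 : (0 : ℝ) < Z ^ n := pow_pos hZ0 n
  have h5 : K * Z * (((n + 1 : ℕ) : ℝ) ^ m / Z ^ (n + 1)) = K * ((n : ℝ) + 1) ^ m / Z ^ n := by
    push_cast
    field_simp
    ring
  rw [h5, div_lt_one h4] at hn
  linarith

end Vale.Agent.P141
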