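import Vale.Agent.P141.Ana
import Vale.Agent.P141.HashB
import Vale.Agent.P141.Img
import Vale.Agent.P141.Tilt
import Vale.Agent.P141.Alg
import Vale.Agent.P141.Num

namespace Vale.Agent.P141

open MeasureTheory
open scoped ENNReal NNReal

theorem img_four (n m : ℕ) (xs ts : Fin m → ℤ) (w : ℤ → ℝ) (j : ℕ) (hw : ∀ a, 0 ≤ w a)
    (hpos : ∀ d, 0 < w (xs d - (j : ℤ) * ts d))
    (hs : ∑ a ∈ Finset.univ.image (fun d => xs d - (j : ℤ) * ts d), w a ≤ 1)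
    (S : Finset (Fin n → Fin m)) (s₀ : Fin n → Fin m)
    (hS : ∀ s ∈ S, ∀ u : Fin m → ℝ, ∏ i, u (s i) = ∏ i, u (s₀ i)) (N : ℕ)
    (hN : N ≤ 4 * ((S.image fun s => ((fun i => xs (s i)), (fun i => ts (s i)))).image
      fun z => fun i => z.1 i - (j : ℤ) * z.2 i).card) :
    (N : ℝ) * ∏ i, w (xs (s₀ i) - (j : ℤ) * ts (s₀ i)) ≤ 4 := by
  have h := img_card n m (fun d => xs d - (j : ℤ) * ts d) w hw hs S
    (∏ i, w (xs (s₀ i) - (j : ℤ) * ts (s₀ i)))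
    (fun s hs' => hS s hs' (fun d => w (xs d - (j : ℤ) * ts d)))
  rw [Finset.image_image] at hN
  have hQ : 0 ≤ ∏ i, w (xs (s₀ i) - (j : ℤ) * ts (s₀ i)) :=
    Finset.prod_nonneg fun i _ => (hpos _).le
  have hN' : (N : ℝ) ≤ 4 * ((S.image fun s => fun i => xs (s i) - (j : ℤ) * ts (s i)).card : ℝ) := by
    exact_mod_cast hN
  have h2 := mul_le_mul_of_nonneg_right hN' hQ
  rw [mul_assoc] at h2
  linarith

theorem final (p₁ p₂ p₃ r : ℝ≥0∞) (h₁ : 1 < p₁) (h₂ : 1 < p₂) (h₃ : 1 < p₃) (hr0 : 0 < r)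
    (hH : r⁻¹ = p₁⁻¹ + p₂⁻¹ + p₃⁻¹) (hr : r ≤ 7 / 15) : ¬ BoundedAt p₁ p₂ p₃ r := by
  intro hB
  have hrt : r ≠ ⊤ := by
    refine ne_top_of_le_ne_top ?_ hr
    exact ENNReal.div_ne_top (by norm_num) (by norm_num)
  obtain ⟨C, hC, hA⟩ := ana p₁ p₂ p₃ r hr0.ne' hrt hB
  obtain ⟨m, R, xs, ts, w, hxs, hR, hw, hj, hnum⟩ := num
  have f₁ : p₁⁻¹ ≠ ⊤ := ENNReal.inv_ne_top.2 (zero_lt_one.trans h₁).ne'
  have f₂ : p₂⁻¹ ≠ ⊤ := ENNReal.inv_ne_top.2 (zero_lt_one.trans h₂).ne'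
  have f₃ : p₃⁻¹ ≠ ⊤ := ENNReal.inv_ne_top.2 (zero_lt_one.trans h₃).ne'
  have hρ : (r⁻¹).toReal = (p₁⁻¹).toReal + (p₂⁻¹).toReal + (p₃⁻¹).toReal := by
    rw [hH, ENNReal.toReal_add (ENNReal.add_ne_top.2 ⟨f₁, f₂⟩) f₃, ENNReal.toReal_add f₁ f₂]
  have hρ2 : (15 / 7 : ℝ) ≤ (r⁻¹).toReal := by
    have h0 : 0 < r.toReal := ENNReal.toReal_pos hr0.ne' hrt
    have h1 : r.toReal ≤ 7 / 15 := by
      have := ENNReal.toReal_mono (ENNReal.div_ne_top (by norm_num) (by norm_num)) hr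
      simpa using this
    rw [ENNReal.toReal_inv, le_inv_comm₀ (by norm_num) h0]
    norm_num
    exact h1
  rw [hρ] at hA hρ2
  have a₁ : 0 ≤ (p₁⁻¹).toReal := ENNReal.toReal_nonneg
  have a₂ : 0 ≤ (p₂⁻¹).toReal := ENNReal.toReal_nonneg
  have a₃ : 0 ≤ (p₃⁻¹).toReal := ENNReal.toReal_nonneg
  generalize (p₁⁻¹).toReal = α₁ at hA hρ2 a₁
  generalize (p₂⁻¹).toReal = α₂ at hA hρ2 a₂
  generalize (p₃⁻¹).toReal = α₃ at hA hρ2 a₃
  obtain ⟨θ, hθ⟩ : ∃ θ : ℝ, θ = α₁ + α₂ + α₃ - 1 := ⟨_, rfl⟩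
  have hθ0 : 0 < θ := by linarith
  have hsum : α₁ / θ + α₂ / θ + α₃ / θ ≤ 15 / 8 := by
    rw [← add_div, ← add_div, div_le_iff₀ hθ0]
    linarith
  have hlt := hnum (α₁ / θ) (α₂ / θ) (α₃ / θ) (by positivity) (by positivity) (by positivity) hsum
  obtain ⟨q₁, t₁⟩ := hj 1 (by norm_num) (by norm_num)
  obtain ⟨q₂, t₂⟩ := hj 2 (by norm_num) (by norm_num)
  obtain ⟨q₃, t₃⟩ := hj 3 (by norm_num) (by norm_num)
  refine absurd (tilt m (fun d => w 1 (xs d - ((1 : ℕ) : ℤ) * ts d) ^ (α₁ / θ) *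
    w 2 (xs d - ((2 : ℕ) : ℤ) * ts d) ^ (α₂ / θ) * w 3 (xs d - ((3 : ℕ) : ℤ) * ts d) ^ (α₃ / θ))
    (fun d => mul_nonneg (mul_nonneg (Real.rpow_nonneg (hw _ _) _) (Real.rpow_nonneg (hw _ _) _))
      (Real.rpow_nonneg (hw _ _) _))
    ((C * (4 * (R : ℝ) + 6) * 8 ^ (α₁ + α₂ + α₃)) ^ (1 / θ)) ?_) (not_le.2 hlt)
  intro n S s₀ hs₀ hS
  have hinj : Function.Injective
      (fun s : Fin n → Fin m => ((fun i => xs (s i)), (fun i => ts (s i)))) := by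
    intro s s' h
    funext i
    exact hxs (congrFun (congrArg Prod.fst h) i)
  obtain ⟨b, P, hb0, hb, hPi, hP, hcard, him⟩ := hashB n R
    (S.image fun s => ((fun i => xs (s i)), (fun i => ts (s i))))
    (by
      intro z hz z' hz' h
      obtain ⟨s, -, rfl⟩ := Finset.mem_image.1 (Finset.mem_coe.1 hz)
      obtain ⟨s', -, rfl⟩ := Finset.mem_image.1 (Finset.mem_coe.1 hz')
      have : s = s' := by
        funext i
        exact hxs (congrFun h i)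
      rw [this])
    (by
      intro z hz i
      obtain ⟨s, -, rfl⟩ := Finset.mem_image.1 hz
      exact hR _)
  rw [Finset.card_image_of_injective _ hinj] at hb hcard
  have hM : 1 ≤ S.card := Finset.card_pos.2 ⟨s₀, hs₀⟩
  have k₁ := img_four n m xs ts (w 1) 1 (hw 1) q₁ t₁ S s₀ hS _ (him 1 (by norm_num))
  have k₂ := img_four n m xs ts (w 2) 2 (hw 2) q₂ t₂ S s₀ hS _ (him 2 (by norm_num))
  have k₃ := img_four n m xs ts (w 3) 3 (hw 3) q₃ t₃ S s₀ hS _ (him 3 (by norm_num))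
  have key := alg C R S.card P.card b _ _ _ _ _ _ α₁ α₂ α₃ θ hC (Nat.cast_nonneg _)
    (by exact_mod_cast hM) (by exact_mod_cast hcard) (by exact_mod_cast hb)
    (Nat.cast_nonneg _) (Nat.cast_nonneg _) (Nat.cast_nonneg _)
    (Finset.prod_pos fun i _ => q₁ (s₀ i)) (Finset.prod_pos fun i _ => q₂ (s₀ i))
    (Finset.prod_pos fun i _ => q₃ (s₀ i)) k₁ k₂ k₃ a₁ a₂ a₃ hθ hθ0 (hA b P hb0 hPi hP)
  rw [Finset.prod_mul_distrib, Finset.prod_mul_distrib,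
    Real.finsetProd_rpow _ _ (fun i _ => hw _ _), Real.finsetProd_rpow _ _ (fun i _ => hw _ _),
    Real.finsetProd_rpow _ _ (fun i _ => hw _ _)]
  exact key

end Vale.Agent.P141
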