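import Vale.Agent.P141.Stmt

namespace Vale.Agent.P141

open MeasureTheory
open scoped ENNReal NNReal

namespace HashAA

open Finset

theorem card_le {α β : Type*} [DecidableEq α] [DecidableEq β] (A : Finset α) (f : α → β) :
    A.card ≤ (A.image f).card + (A.offDiag.filter fun p => f p.1 = f p.2).card := by
  classical
  rw [← card_filter_add_card_filter_not (s := A) fun v => ∀ w ∈ A, f v = f w → v = w]
  refine add_le_add (card_le_card_of_injOn f (fun v hv => ?_) fun v hv w hw e => ?_)
    (le_trans (card_le_card fun v hv => ?_) (card_image_le (f := Prod.fst)))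
  · exact mem_coe.2 (mem_image_of_mem _ (mem_filter.1 (mem_coe.1 hv)).1)
  · exact (mem_filter.1 (mem_coe.1 hv)).2 w (mem_filter.1 (mem_coe.1 hw)).1 e
  · obtain ⟨h1, h2⟩ := mem_filter.1 hv
    push Not at h2
    obtain ⟨w, hw, e, hne⟩ := h2
    exact mem_image.2 ⟨(v, w), mem_filter.2 ⟨mem_offDiag.2 ⟨h1, hw, hne⟩, e⟩, rfl⟩

theorem fib {n b : ℕ} [Fact b.Prime] {v w : Fin n → ZMod b} (h : v ≠ w) :
    b * (univ.filter fun c : Fin n → ZMod b => ∑ i, c i * v i = ∑ i, c i * w i).card ≤
      Fintype.card (Fin n → ZMod b) := by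
  obtain ⟨i, hi⟩ := Function.ne_iff.1 h
  have key : ∀ (t : ZMod b) (c : Fin n → ZMod b), ∑ j, c j * v j = ∑ j, c j * w j →
      ∑ j, (c + Pi.single i t : Fin n → ZMod b) j * (v j - w j) = t * (v i - w i) := by
    intro t c hc
    simp only [Pi.add_apply, add_mul, sum_add_distrib, Pi.single_apply, ite_mul, zero_mul,
      sum_ite_eq', mem_univ, if_true, mul_sub, sum_sub_distrib, hc]
    ring
  have h1 := card_le_card_of_injOn (s := (univ : Finset (ZMod b)) ×ˢ
    univ.filter fun c : Fin n → ZMod b => ∑ i, c i * v i = ∑ i, c i * w i) (t := univ)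
    (fun p => p.2 + Pi.single i p.1) (fun _ _ => mem_coe.2 (mem_univ _)) fun p hp q hq e => by
      have e1 := key p.1 p.2 (mem_filter.1 (mem_product.1 (mem_coe.1 hp)).2).2
      have e2 := key q.1 q.2 (mem_filter.1 (mem_product.1 (mem_coe.1 hq)).2).2
      beta_reduce at e
      rw [e, e2] at e1
      have e3 := mul_right_cancel₀ (sub_ne_zero.2 hi) e1
      rw [e3] at e
      exact Prod.ext e3.symm (add_right_cancel e)
  rwa [card_product, card_univ, ZMod.card, card_univ] at h1

end HashAA

open Finset in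
theorem hashA (n b : ℕ) [Fact b.Prime] (A : Finset (Fin n → ZMod b)) (hA : 2 * A.card ≤ b) :
    ∃ c : Fin n → ZMod b, A.card ≤ 2 * (A.image fun v => ∑ i, c i * v i).card := by
  have hb : 0 < b := (Fact.out : b.Prime).pos
  have h1 : b * ∑ c : Fin n → ZMod b,
      (A.offDiag.filter fun p => ∑ i, c i * p.1 i = ∑ i, c i * p.2 i).card ≤
      A.card * A.card * Fintype.card (Fin n → ZMod b) := by
    simp only [card_filter]
    rw [sum_comm, mul_sum]
    refine (sum_le_card_nsmul _ _ (Fintype.card (Fin n → ZMod b)) fun p hp => ?_).trans ?_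
    · rw [← card_filter]
      exact HashAA.fib (mem_offDiag.1 hp).2.2
    · rw [smul_eq_mul, offDiag_card]
      exact Nat.mul_le_mul_right _ (Nat.sub_le _ _)
  have h2 : ∑ c : Fin n → ZMod b,
      2 * (A.offDiag.filter fun p => ∑ i, c i * p.1 i = ∑ i, c i * p.2 i).card ≤
      ∑ _c : Fin n → ZMod b, A.card := by
    rw [← mul_sum, sum_const, card_univ, smul_eq_mul]
    refine Nat.le_of_mul_le_mul_left ?_ hb
    have h3 := Nat.mul_le_mul_right (A.card * Fintype.card (Fin n → ZMod b)) hA
    nlinarith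
  obtain ⟨c, -, hc⟩ := exists_le_of_sum_le univ_nonempty h2
  have h4 := HashAA.card_le A fun v => ∑ i, c i * v i
  exact ⟨c, by omega⟩

end Vale.Agent.P141
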