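import Mathlib

namespace Vale.Agent.P141

open MeasureTheory
open scoped ENNReal NNReal

/-- the truncated trilinear Hilbert transform with slopes 1, 2, 3 -/
noncomputable def truncT (f₁ f₂ f₃ : ℝ → ℂ) (ε R x : ℝ) : ℂ :=
  ∫ t in {t : ℝ | ε < |t| ∧ |t| < R}, f₁ (x - t) * f₂ (x - 2 * t) * f₃ (x - 3 * t) / (t : ℂ)

/-- the trilinear Hilbert transform: the limit of the truncations as `ε → 0+` and `R → ∞` -/
noncomputable def triHT (f₁ f₂ f₃ : ℝ → ℂ) (x : ℝ) : ℂ :=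
  Filter.limUnder (nhdsWithin (0 : ℝ) (Set.Ioi 0) ×ˢ (Filter.atTop : Filter ℝ))
    (fun q : ℝ × ℝ => truncT f₁ f₂ f₃ q.1 q.2 x)

/-- boundedness of the trilinear Hilbert transform on Schwartz functions at a tuple -/
def BoundedAt (p₁ p₂ p₃ r : ℝ≥0∞) : Prop :=
  ∃ C : ℝ≥0, ∀ f₁ f₂ f₃ : SchwartzMap ℝ ℂ,
    eLpNorm (triHT f₁ f₂ f₃) r volume ≤
      (C : ℝ≥0∞) * eLpNorm f₁ p₁ volume * eLpNorm f₂ p₂ volume * eLpNorm f₃ p₃ volume

end Vale.Agent.P141
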